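import Mathlib

namespace Vale.Agent.P062

abbrev Cell := ℤ × ℤ

def sp (a b : ℤ) (sw : Bool) (c : Cell) : Cell :=
  if sw then (b * c.2, a * c.1) else (a * c.1, b * c.2)

def Owns (M : Finset Cell) : Prop :=
  ∃ (t : Cell) (a b : ℤ) (sw : Bool), (a = 1 ∨ a = -1) ∧ (b = 1 ∨ b = -1) ∧
    ∀ c ∈ ([(0, 0), (1, 0), (2, 0), (3, 0), (3, 1), (4, 1)] : List Cell), t + sp a b sw c ∈ M

def WinsIn : ℕ → Finset Cell → Finset Cell → Prop
  | 0, M, _ => Owns M
  | n + 1, M, B => ∃ x, x ∉ M ∧ x ∉ B ∧ ∀ b, b ∉ insert x M → b ∉ B →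
      WinsIn n (insert x M) (insert b B)

lemma Owns.mono {M M' : Finset Cell} (h : Owns M) (hM : M ⊆ M') : Owns M' := by
  obtain ⟨t, a, b, sw, ha, hb, h⟩ := h
  exact ⟨t, a, b, sw, ha, hb, fun c hc => hM (h c hc)⟩

lemma exists_free (M B : Finset Cell) : ∃ x, x ∉ M ∧ x ∉ B := by
  obtain ⟨x, hx⟩ := Infinite.exists_notMem_finset (M ∪ B)
  exact ⟨x, by simpa using hx⟩

lemma WinsIn.succ : ∀ {n : ℕ} {M B : Finset Cell}, WinsIn n M B → WinsIn (n + 1) M B
  | 0, M, B, h => by
    obtain ⟨x, h1, h2⟩ := exists_free M B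
    exact ⟨x, h1, h2, fun b _ _ => Owns.mono h (Finset.subset_insert _ _)⟩
  | n + 1, M, B, ⟨x, h1, h2, h⟩ => ⟨x, h1, h2, fun b hb1 hb2 => (h b hb1 hb2).succ⟩

lemma WinsIn.le {n m : ℕ} {M B : Finset Cell} (h : WinsIn n M B) (hnm : n ≤ m) : WinsIn m M B := by
  induction hnm with
  | refl => exact h
  | step _ ih => exact ih.succ

/-- affine symmetry -/
def aff (p : Cell) (a b : ℤ) (sw : Bool) (z : Cell) : Cell := p + sp a b sw z

lemma aff_bij (p : Cell) {a b : ℤ} (sw : Bool) (ha : a = 1 ∨ a = -1) (hb : b = 1 ∨ b = -1) :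
    Function.Bijective (aff p a b sw) := by
  constructor
  · rintro ⟨x, y⟩ ⟨u, v⟩ h
    rcases ha with rfl | rfl <;> rcases hb with rfl | rfl <;> cases sw <;>
      simp [aff, sp, Prod.ext_iff] at h ⊢ <;> omega
  · rintro ⟨x, y⟩
    cases sw
    · exact ⟨(a * (x - p.1), b * (y - p.2)), by
        rcases ha with rfl | rfl <;> rcases hb with rfl | rfl <;> simp [aff, sp, Prod.ext_iff]⟩
    · exact ⟨(a * (y - p.2), b * (x - p.1)), by
        rcases ha with rfl | rfl <;> rcases hb with rfl | rfl <;> simp [aff, sp, Prod.ext_iff]⟩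

lemma owns_aff (p : Cell) {a b : ℤ} (sw : Bool) (ha : a = 1 ∨ a = -1) (hb : b = 1 ∨ b = -1)
    {M M' : Finset Cell} (hM : ∀ z, z ∈ M' ↔ aff p a b sw z ∈ M) (h : Owns M') : Owns M := by
  obtain ⟨t, a', b', sw', ha', hb', h⟩ := h
  refine ⟨aff p a b sw t, if sw' then b * a' else a * a', if sw' then a * b' else b * b',
    xor sw sw', ?_, ?_, fun c hc => ?_⟩
  · rcases ha with rfl | rfl <;> rcases hb with rfl | rfl <;> rcases ha' with rfl | rfl <;>
      cases sw' <;> simp
  · rcases ha with rfl | rfl <;> rcases hb with rfl | rfl <;> rcases hb' with rfl | rfl <;>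
      cases sw' <;> simp
  · have := (hM _).1 (h c hc)
    convert this using 1
    cases sw <;> cases sw' <;> simp [aff, sp, Prod.ext_iff] <;> constructor <;> ring

lemma wins_aff (p : Cell) {a b : ℤ} (sw : Bool) (ha : a = 1 ∨ a = -1) (hb : b = 1 ∨ b = -1) :
    ∀ (n : ℕ) {M B M' B' : Finset Cell}, (∀ z, z ∈ M' ↔ aff p a b sw z ∈ M) →
      (∀ z, z ∈ B' ↔ aff p a b sw z ∈ B) → WinsIn n M' B' → WinsIn n M B
  | 0, _, _, _, _, hM, _, h => owns_aff p sw ha hb hM h
  | n + 1, M, B, M', B', hM, hB, ⟨x, h1, h2, h⟩ => by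
    have hbij := aff_bij p sw ha hb
    refine ⟨aff p a b sw x, fun h3 => h1 ((hM x).2 h3), fun h3 => h2 ((hB x).2 h3),
      fun y hy1 hy2 => ?_⟩
    obtain ⟨y', rfl⟩ := hbij.2 y
    refine wins_aff p sw ha hb n ?_ ?_ (h y' ?_ ?_)
    · intro z; simp [hM, hbij.1.eq_iff]
    · intro z; simp [hB, hbij.1.eq_iff]
    · simpa [hM, hbij.1.eq_iff] using hy1
    · simpa [hB] using hy2

def cell (i : ℕ) : Cell := ((i % 20 : ℕ), (i / 20 : ℕ))

lemma cell_inj {i j : ℕ} (h : cell i = cell j) : i = j := by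
  simp only [cell, Prod.mk.injEq, Nat.cast_inj] at h
  omega

def Valid (n C N : ℕ) : Prop :=
  ∀ (p : Cell) (M B : Finset Cell), (∀ z ∈ M, z ∉ B) → (∀ i, C.testBit i → p + cell i ∈ M) →
    (∀ i, N.testBit i → p + cell i ∉ B) → WinsIn n M B

def sub (a b : ℕ) : Bool := Nat.beq (Nat.land a b) a

lemma sub_spec {a b : ℕ} (h : sub a b = true) {i : ℕ} (hi : a.testBit i) : b.testBit i := by
  have h1 : a &&& b = a := Nat.eq_of_beq_eq_true h
  have := congrArg (fun x => x.testBit i) h1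
  simp only [Nat.testBit_and, hi, Bool.true_and] at this
  exact this

def bit (a i : ℕ) : Bool := Nat.beq (Nat.land (Nat.shiftRight a i) 1) 1

lemma bit_spec (a i : ℕ) : bit a i = a.testBit i := by
  have h : Nat.land (Nat.shiftRight a i) 1 = (a >>> i) % 2 := Nat.and_one_is_mod _
  rw [bit, h, Nat.testBit_eq_decide_div_mod_eq, Nat.shiftRight_eq_div_pow]
  rcases Nat.mod_two_eq_zero_or_one (a / 2 ^ i) with h | h <;> rw [h] <;> rfl

def rep : ℕ := (2 ^ 400 - 1) / (2 ^ 20 - 1)

def colmask (tx : ℕ) : ℕ := Nat.mul (Nat.sub (Nat.shiftLeft 1 (Nat.sub 20 tx)) 1) rep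

lemma colmask_aux : ∀ tx < 20, colmask tx < 2 ^ 400 ∧ ∀ i < 400,
    (colmask tx).testBit i = true → i % 20 + tx < 20 := by decide +kernel

lemma colmask_spec {tx i : ℕ} (htx : tx < 20) (h : (colmask tx).testBit i) : i % 20 + tx < 20 := by
  obtain ⟨h1, h2⟩ := colmask_aux tx htx
  by_cases hi : i < 400
  · exact h2 i hi h
  · have : colmask tx < 2 ^ i := h1.trans_le (Nat.pow_le_pow_right (by norm_num) (by omega))
    rw [Nat.testBit_eq_false_of_lt this] at h
    exact absurd h (by simp)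

def p400 : ℕ := 2 ^ 400
def fC (c : ℕ) : ℕ := Nat.mod c p400
def fN (c : ℕ) : ℕ := Nat.mod (Nat.shiftRight c 400) p400

def stepLoop (db : ℕ → ℕ) (i P Q : ℕ) (n : ℕ) : ℕ → ℕ → Bool :=
  Nat.rec (fun _ I => sub I P)
    (fun _ ih R I =>
      Nat.blt (Nat.mod R 1048576) i &&
      sub (Nat.lor (fC (db (Nat.mod R 1048576))) (fN (db (Nat.mod R 1048576))))
        (colmask (Nat.mod (Nat.mod (Nat.shiftRight R 20) 512) 20)) &&
      sub (Nat.shiftLeft (fC (db (Nat.mod R 1048576))) (Nat.mod (Nat.shiftRight R 20) 512)) P &&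
      sub (Nat.shiftLeft (fN (db (Nat.mod R 1048576))) (Nat.mod (Nat.shiftRight R 20) 512)) Q &&
      ih (Nat.shiftRight R 29) (Nat.land I
        (Nat.shiftLeft (fN (db (Nat.mod R 1048576))) (Nat.mod (Nat.shiftRight R 20) 512)))) n

lemma cell_add {i s : ℕ} (h : i % 20 + s % 20 < 20) : cell (i + s) = cell s + cell i := by
  simp only [cell, Prod.mk_add_mk, Prod.mk.injEq]
  constructor <;> omega

lemma stepLoop_spec (db : ℕ → ℕ) (i P Q : ℕ)
    (hdb : ∀ j < i, Valid j (fC (db j)) (fN (db j)))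
    (p : Cell) (M B : Finset Cell) (z : Cell) (hMB : ∀ w ∈ M, w ∉ insert z B)
    (hP : ∀ k, P.testBit k → p + cell k ∈ M) (hQ : ∀ k, Q.testBit k → p + cell k ∉ B) (n : ℕ) :
    ∀ R I, stepLoop db i P Q n R I = true →
      ((∃ k, I.testBit k ∧ z = p + cell k) ∨ (n ≠ 0 ∧ ∀ k, Q.testBit k → z ≠ p + cell k)) →
      ∃ j < i, WinsIn j M (insert z B) := by
  induction n with
  | zero =>
    intro R I h hz
    rcases hz with ⟨k, hk, rfl⟩ | ⟨h0, _⟩
    · exact absurd (Finset.mem_insert_self _ _) (hMB _ (hP k (sub_spec h hk)))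
    · exact absurd rfl h0
  | succ n ih =>
    intro R I h hz
    simp only [stepLoop, Bool.and_eq_true] at h
    obtain ⟨⟨⟨⟨h1, h2⟩, h3⟩, h4⟩, h5⟩ := h
    set j := Nat.mod R 1048576 with hj
    set s := Nat.mod (Nat.shiftRight R 20) 512 with hs
    have hji : j < i := by simpa [Nat.blt_eq] using h1
    have hw : ∀ k, ((fC (db j)).testBit k ∨ (fN (db j)).testBit k) →
        cell (k + s) = cell s + cell k := by
      intro k hk
      refine cell_add (colmask_spec (Nat.mod_lt _ (by norm_num)) (sub_spec h2 ?_))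
      have : Nat.lor (fC (db j)) (fN (db j)) = fC (db j) ||| fN (db j) := rfl
      rw [this, Nat.testBit_or]
      simpa using hk
    have hsh : ∀ (a k : ℕ), a.testBit k → (Nat.shiftLeft a s).testBit (k + s) := by
      intro a k hk
      have : Nat.shiftLeft a s = a <<< s := rfl
      rw [this, Nat.testBit_shiftLeft]
      simpa using hk
    by_cases hzN : ∃ k, (fN (db j)).testBit k ∧ z = p + cell (k + s)
    · obtain ⟨k, hk, hzk⟩ := hzN
      refine ih _ _ h5 (Or.inl ⟨k + s, ?_, hzk⟩)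
      rcases hz with ⟨k', hk', hz'⟩ | ⟨_, hz'⟩
      · have : k' = k + s := cell_inj (add_left_cancel (hz'.symm.trans hzk))
        subst this
        have h6 : Nat.land I (Nat.shiftLeft (fN (db j)) s) = I &&& (Nat.shiftLeft (fN (db j)) s) := rfl
        rw [h6, Nat.testBit_and, hk', hsh _ _ hk]; rfl
      · exact absurd hzk (hz' _ (sub_spec h4 (hsh _ _ hk)))
    · refine ⟨j, hji, hdb j hji (p + cell s) M _ hMB ?_ ?_⟩
      · intro k hk
        rw [add_assoc, ← hw k (Or.inl hk)]
        exact hP _ (sub_spec h3 (hsh _ _ hk))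
      · intro k hk
        rw [add_assoc, ← hw k (Or.inr hk), Finset.mem_insert, not_or]
        exact ⟨fun h => hzN ⟨k, hk, h.symm⟩, hQ _ (sub_spec h4 (hsh _ _ hk))⟩

def stepOK (db : ℕ → ℕ) (i C N R : ℕ) : Bool :=
  bit N (Nat.mod R 512) && Nat.blt 0 (Nat.mod (Nat.shiftRight R 9) 256) &&
  stepLoop db i (Nat.lor C (Nat.shiftLeft 1 (Nat.mod R 512))) (Nat.lor C N)
    (Nat.mod (Nat.shiftRight R 9) 256) (Nat.shiftRight R 17) (Nat.lor C N)

lemma stepOK_spec (db : ℕ → ℕ) (i C N R : ℕ) (hdb : ∀ j < i, Valid j (fC (db j)) (fN (db j)))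
    (h : stepOK db i C N R = true) : Valid i C N := by
  simp only [stepOK, Bool.and_eq_true] at h
  obtain ⟨⟨h1, h2⟩, h3⟩ := h
  set x := Nat.mod R 512 with hx
  rw [bit_spec] at h1
  intro p M B hMB hC hN
  obtain ⟨y, hy1, hy2, hy3⟩ : ∃ y, y ∉ M ∧ y ∉ B ∧ p + cell x ∈ insert y M := by
    by_cases h : p + cell x ∈ M
    · obtain ⟨y, h1, h2⟩ := exists_free M B
      exact ⟨y, h1, h2, Finset.mem_insert_of_mem h⟩
    · exact ⟨_, h, hN x h1, Finset.mem_insert_self _ _⟩
  have key : ∀ z, z ∉ insert y M → z ∉ B → ∃ j < i, WinsIn j (insert y M) (insert z B) := by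
    intro z hz1 hz2
    refine stepLoop_spec db i _ _ hdb p (insert y M) B z ?_ ?_ ?_ _ _ _ h3 ?_
    · intro w hw hw2
      rcases Finset.mem_insert.1 hw2 with rfl | hw2
      · exact hz1 hw
      · rcases Finset.mem_insert.1 hw with rfl | hw
        · exact hy2 hw2
        · exact hMB w hw hw2
    · intro k hk
      have : Nat.lor C (Nat.shiftLeft 1 x) = C ||| 2 ^ x := by
        rw [← Nat.one_shiftLeft]; rfl
      rw [this, Nat.testBit_or, Bool.or_eq_true] at hk
      rcases hk with hk | hk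
      · exact Finset.mem_insert_of_mem (hC k hk)
      · have : x = k := by simpa [Nat.testBit_two_pow] using hk
        exact this ▸ hy3
    · intro k hk
      have : Nat.lor C N = C ||| N := rfl
      rw [this, Nat.testBit_or, Bool.or_eq_true] at hk
      rcases hk with hk | hk
      · exact hMB _ (hC k hk)
      · exact hN k hk
    · by_cases h : ∃ k, (Nat.lor C N).testBit k ∧ z = p + cell k
      · exact Or.inl h
      · refine Or.inr ⟨?_, fun k hk h' => h ⟨k, hk, h'⟩⟩
        have : 0 < Nat.mod (Nat.shiftRight R 9) 256 := by simpa [Nat.blt_eq] using h2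
        omega
  obtain ⟨z, hz1, hz2⟩ := exists_free (insert y M) B
  obtain ⟨j, hj, -⟩ := key z hz1 hz2
  obtain ⟨i', rfl⟩ : ∃ i', i = i' + 1 := ⟨i - 1, by omega⟩
  refine ⟨y, hy1, hy2, fun b hb1 hb2 => ?_⟩
  obtain ⟨j, hj, h⟩ := key b hb1 hb2
  exact h.le (by omega)

def coordOK (f : Bool) (a x : ℕ) : Bool := cond f (Nat.ble x a) (Nat.blt (Nat.add a x) 20)
def coord (f : Bool) (a x : ℕ) : ℕ := cond f (Nat.sub a x) (Nat.add a x)
def target (fx fy sw : Bool) (a b k : ℕ) : ℕ :=
  cond sw (Nat.add (Nat.mul (coord fx a (Nat.mod k 20)) 20) (coord fy b (Nat.div k 20)))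
    (Nat.add (Nat.mul (coord fy b (Nat.div k 20)) 20) (coord fx a (Nat.mod k 20)))

def symLoop (fx fy sw : Bool) (a b src dst : ℕ) (n : ℕ) : Bool :=
  Nat.rec true (fun k ih => cond (bit src k)
    (coordOK fx a (Nat.mod k 20) && coordOK fy b (Nat.div k 20) &&
      bit dst (target fx fy sw a b k) && ih) ih) n

def sg (f : Bool) : ℤ := if f then -1 else 1

lemma coord_spec {f : Bool} {a x : ℕ} (ha : a < 20) (h : coordOK f a x = true) :
    coord f a x < 20 ∧ (coord f a x : ℤ) = a + sg f * x := by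
  cases f
  · have : a + x < 20 := by simpa [coordOK, Nat.blt_eq] using h
    simp [coord, sg, this]
  · have : x ≤ a := by simpa [coordOK, Nat.ble_eq] using h
    simp only [coord, sg, cond_true, Nat.sub_eq, if_true]
    omega

lemma symLoop_spec {fx fy sw : Bool} {a b src dst : ℕ} (ha : a < 20) (hb : b < 20) (n : ℕ) :
    symLoop fx fy sw a b src dst n = true → ∀ k < n, src.testBit k →
      ∃ t, dst.testBit t ∧ cell t = aff (sp 1 1 sw (a, b)) (sg fx) (sg fy) sw (cell k) := by
  induction n with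
  | zero => intro _ k hk; omega
  | succ n ih =>
    intro h k hk hs
    simp only [symLoop] at h ih
    by_cases hb' : bit src n = true
    · rw [hb', cond_true] at h
      simp only [Bool.and_eq_true] at h
      obtain ⟨⟨⟨h1, h2⟩, h3⟩, h4⟩ := h
      rcases Nat.lt_succ_iff_lt_or_eq.1 hk with hk | rfl
      · exact ih h4 k hk hs
      · refine ⟨_, by rwa [bit_spec] at h3, ?_⟩
        obtain ⟨a1, a2⟩ := coord_spec ha h1
        obtain ⟨b1, b2⟩ := coord_spec hb h2
        have e1 : Nat.mod k 20 = k % 20 := rfl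
        have e2 : Nat.div k 20 = k / 20 := rfl
        rw [e1] at a1 a2
        rw [e2] at b1 b2
        cases sw
        · simp only [target, cond_false, e1, e2, Nat.add_eq, Nat.mul_eq, cell, aff, sp,
            Bool.false_eq_true, if_false, Prod.mk_add_mk, one_mul, ← a2, ← b2, Prod.mk.injEq,
            Nat.cast_inj]
          omega
        · simp only [target, cond_true, e1, e2, Nat.add_eq, Nat.mul_eq, cell, aff, sp,
            if_true, Prod.mk_add_mk, one_mul, ← a2, ← b2, Prod.mk.injEq, Nat.cast_inj]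
          omega
    · have hb'' : bit src n = false := by simpa using hb'
      rw [hb'', cond_false] at h
      rcases Nat.lt_succ_iff_lt_or_eq.1 hk with hk | rfl
      · exact ih h k hk hs
      · rw [bit_spec] at hb'; exact absurd hs hb'

def symOK (db : ℕ → ℕ) (i C N R : ℕ) : Bool :=
  Nat.blt (Nat.mod R 1048576) i && Nat.blt (Nat.mod (Nat.shiftRight R 23) 32) 20 &&
  Nat.blt (Nat.shiftRight R 28) 20 &&
  symLoop (bit R 20) (bit R 21) (bit R 22) (Nat.mod (Nat.shiftRight R 23) 32) (Nat.shiftRight R 28)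
    (fC (db (Nat.mod R 1048576))) C 400 &&
  symLoop (bit R 20) (bit R 21) (bit R 22) (Nat.mod (Nat.shiftRight R 23) 32) (Nat.shiftRight R 28)
    (fN (db (Nat.mod R 1048576))) (Nat.lor C N) 400

lemma lt400 {a k : ℕ} (h : (Nat.mod a p400).testBit k) : k < 400 := by
  by_contra hk
  have h1 : Nat.mod a p400 < 2 ^ k := (Nat.mod_lt _ (by unfold p400; positivity)).trans_le
    (Nat.pow_le_pow_right (by norm_num) (by omega))
  rw [Nat.testBit_eq_false_of_lt h1] at h
  exact absurd h (by simp)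

lemma sg_cases (f : Bool) : sg f = 1 ∨ sg f = -1 := by cases f <;> simp [sg]

lemma symOK_spec (db : ℕ → ℕ) (i C N R : ℕ) (hdb : ∀ j < i, Valid j (fC (db j)) (fN (db j)))
    (h : symOK db i C N R = true) : Valid i C N := by
  classical
  simp only [symOK, Bool.and_eq_true, Nat.blt_eq] at h
  obtain ⟨⟨⟨⟨h1, h2⟩, h3⟩, h4⟩, h5⟩ := h
  intro p M B hMB hC hN
  set j := Nat.mod R 1048576 with hj
  set a := Nat.mod (Nat.shiftRight R 23) 32 with ha
  set b := Nat.shiftRight R 28 with hb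
  set q := p + sp 1 1 (bit R 22) (a, b) with hq
  have hbij := aff_bij q (bit R 22) (sg_cases (bit R 20)) (sg_cases (bit R 21))
  set e := aff q (sg (bit R 20)) (sg (bit R 21)) (bit R 22) with he
  have hM' : ∀ z, z ∈ M.preimage e hbij.1.injOn ↔ e z ∈ M := fun z => Finset.mem_preimage
  have hB' : ∀ z, z ∈ B.preimage e hbij.1.injOn ↔ e z ∈ B := fun z => Finset.mem_preimage
  have hq' : ∀ z, e z = p + aff (sp 1 1 (bit R 22) (a, b)) (sg (bit R 20)) (sg (bit R 21))
      (bit R 22) z := by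
    intro z; simp only [he, hq, aff, add_assoc]
  refine (wins_aff q (bit R 22) (sg_cases _) (sg_cases _) j hM' hB' (hdb j h1 0 _ _ ?_ ?_ ?_)).le
    h1.le
  · intro z hz; rw [hB']; exact hMB _ ((hM' z).1 hz)
  · intro k hk
    obtain ⟨t, ht, ht2⟩ := symLoop_spec h2 h3 400 h4 k (lt400 hk) hk
    rw [zero_add, hM', hq', ← ht2]
    exact hC t ht
  · intro k hk
    obtain ⟨t, ht, ht2⟩ := symLoop_spec h2 h3 400 h5 k (lt400 hk) hk
    rw [zero_add, hB', hq', ← ht2]
    have : Nat.lor C N = C ||| N := rfl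
    rw [this, Nat.testBit_or, Bool.or_eq_true] at ht
    rcases ht with ht | ht
    · exact hMB _ (hC t ht)
    · exact hN t ht

lemma won_spec (i N : ℕ) : Valid i 25165839 N := by
  intro p M B _ hC _
  refine WinsIn.le (n := 0) ⟨p, 1, 1, false, Or.inl rfl, Or.inl rfl, ?_⟩ (Nat.zero_le _)
  have h0 := hC 0 (by decide)
  have h1 := hC 1 (by decide)
  have h2 := hC 2 (by decide)
  have h3 := hC 3 (by decide)
  have h4 := hC 23 (by decide)
  have h5 := hC 24 (by decide)
  simp only [cell] at h0 h1 h2 h3 h4 h5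
  intro c hc
  simp only [List.mem_cons, List.not_mem_nil, or_false] at hc
  rcases hc with rfl | rfl | rfl | rfl | rfl | rfl <;> simpa [sp]

def cardOK (db : ℕ → ℕ) (i c : ℕ) : Bool :=
  cond (bit c 800) (stepOK db i (fC c) (fN c) (Nat.shiftRight c 802))
    (cond (bit c 801) (symOK db i (fC c) (fN c) (Nat.shiftRight c 802)) (Nat.beq (fC c) 25165839))

def rangeOK (db : ℕ → ℕ) (lo n : ℕ) : Bool :=
  Nat.rec true (fun k ih => cardOK db (Nat.add lo k) (db (Nat.add lo k)) && ih) n

lemma rangeOK_spec {db : ℕ → ℕ} {lo n : ℕ} (h : rangeOK db lo n = true) :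
    ∀ i, lo ≤ i → i < lo + n → cardOK db i (db i) = true := by
  induction n with
  | zero => intro i h1 h2; omega
  | succ n ih =>
    intro i h1 h2
    simp only [rangeOK, Bool.and_eq_true] at h ih
    by_cases h3 : i = lo + n
    · subst h3; exact h.1
    · exact ih h.2 i h1 (by omega)

lemma all_valid (db : ℕ → ℕ) (n : ℕ) (h : ∀ i < n, cardOK db i (db i) = true) :
    ∀ i < n, Valid i (fC (db i)) (fN (db i)) := by
  intro i
  induction i using Nat.strong_induction_on with
  | _ i ih =>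
    intro hi
    have h1 := h i hi
    have hdb : ∀ j < i, Valid j (fC (db j)) (fN (db j)) := fun j hj => ih j hj (by omega)
    unfold cardOK at h1
    cases h2 : bit (db i) 800
    · rw [h2, cond_false] at h1
      cases h3 : bit (db i) 801
      · rw [h3, cond_false] at h1
        rw [Nat.eq_of_beq_eq_true h1]
        exact won_spec _ _
      · rw [h3, cond_true] at h1
        exact symOK_spec db i _ _ _ hdb h1
    · rw [h2, cond_true] at h1
      exact stepOK_spec db i _ _ _ hdb h1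

inductive T where
  | l (n : ℕ) : T
  | n (a b : T) : T

/-- lookup with the most significant bit first; `d` is half the size of the tree -/
noncomputable def T.get (t : T) : ℕ → ℕ → ℕ :=
  T.rec (fun n _ _ => n) (fun _ _ fa fb d i =>
    cond (Nat.blt i d) (fa (Nat.shiftRight d 1) i) (fb (Nat.shiftRight d 1) (Nat.sub i d))) t

end Vale.Agent.P062
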