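import Vale.Agent.P062.D0
import Vale.Agent.P062.D1
import Vale.Agent.P062.D2
import Vale.Agent.P062.D3
import Vale.Agent.P062.D4
import Vale.Agent.P062.D5
import Vale.Agent.P062.D6
import Vale.Agent.P062.D7
import Vale.Agent.P062.D8
import Vale.Agent.P062.D9
import Vale.Agent.P062.D10
import Vale.Agent.P062.D11
import Vale.Agent.P062.D12

namespace Vale.Agent.P062

def dt : T := (.n (.n (.n (.n d0 d1) (.n d2 d3)) (.n (.n d4 d5) (.n d6 d7))) (.n (.n (.n d8 d9) (.n d10 d11)) (.n (.n d12 (.l 0)) (.l 0))))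

noncomputable def db (i : ℕ) : ℕ := dt.get 8192 i

end Vale.Agent.P062
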