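import Vale.Agent.P062.DB

namespace Vale.Agent.P062

theorem r0 : rangeOK db 0 256 = true := by decide +kernel
theorem r1 : rangeOK db 256 256 = true := by decide +kernel
theorem r2 : rangeOK db 512 256 = true := by decide +kernel
theorem r3 : rangeOK db 768 256 = true := by decide +kernel
theorem r4 : rangeOK db 1024 256 = true := by decide +kernel
theorem r5 : rangeOK db 1280 256 = true := by decide +kernel
theorem r6 : rangeOK db 1536 256 = true := by decide +kernel
theorem r7 : rangeOK db 1792 256 = true := by decide +kernel

end Vale.Agent.P062
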