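import Vale.Agent.P062.DB

namespace Vale.Agent.P062

theorem r8 : rangeOK db 2048 256 = true := by decide +kernel
theorem r9 : rangeOK db 2304 256 = true := by decide +kernel
theorem r10 : rangeOK db 2560 256 = true := by decide +kernel
theorem r11 : rangeOK db 2816 256 = true := by decide +kernel
theorem r12 : rangeOK db 3072 256 = true := by decide +kernel
theorem r13 : rangeOK db 3328 256 = true := by decide +kernel
theorem r14 : rangeOK db 3584 256 = true := by decide +kernel
theorem r15 : rangeOK db 3840 256 = true := by decide +kernel

end Vale.Agent.P062
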