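import Vale.Agent.P062.DB

namespace Vale.Agent.P062

theorem r16 : rangeOK db 4096 256 = true := by decide +kernel
theorem r17 : rangeOK db 4352 256 = true := by decide +kernel
theorem r18 : rangeOK db 4608 256 = true := by decide +kernel
theorem r19 : rangeOK db 4864 256 = true := by decide +kernel
theorem r20 : rangeOK db 5120 256 = true := by decide +kernel
theorem r21 : rangeOK db 5376 256 = true := by decide +kernel
theorem r22 : rangeOK db 5632 256 = true := by decide +kernel
theorem r23 : rangeOK db 5888 256 = true := by decide +kernel

end Vale.Agent.P062
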