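import Vale.Agent.P062.DB

namespace Vale.Agent.P062

theorem r24 : rangeOK db 6144 256 = true := by decide +kernel
theorem r25 : rangeOK db 6400 256 = true := by decide +kernel
theorem r26 : rangeOK db 6656 256 = true := by decide +kernel
theorem r27 : rangeOK db 6912 256 = true := by decide +kernel
theorem r28 : rangeOK db 7168 256 = true := by decide +kernel
theorem r29 : rangeOK db 7424 256 = true := by decide +kernel
theorem r30 : rangeOK db 7680 256 = true := by decide +kernel
theorem r31 : rangeOK db 7936 256 = true := by decide +kernel

end Vale.Agent.P062
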