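import Vale.Agent.P062.DB

namespace Vale.Agent.P062

theorem r32 : rangeOK db 8192 256 = true := by decide +kernel
theorem r33 : rangeOK db 8448 256 = true := by decide +kernel
theorem r34 : rangeOK db 8704 256 = true := by decide +kernel
theorem r35 : rangeOK db 8960 256 = true := by decide +kernel
theorem r36 : rangeOK db 9216 256 = true := by decide +kernel
theorem r37 : rangeOK db 9472 256 = true := by decide +kernel
theorem r38 : rangeOK db 9728 256 = true := by decide +kernel
theorem r39 : rangeOK db 9984 256 = true := by decide +kernel

end Vale.Agent.P062
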