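import Vale.Agent.P062.DB

namespace Vale.Agent.P062

theorem r40 : rangeOK db 10240 256 = true := by decide +kernel
theorem r41 : rangeOK db 10496 256 = true := by decide +kernel
theorem r42 : rangeOK db 10752 256 = true := by decide +kernel
theorem r43 : rangeOK db 11008 256 = true := by decide +kernel
theorem r44 : rangeOK db 11264 256 = true := by decide +kernel
theorem r45 : rangeOK db 11520 256 = true := by decide +kernel
theorem r46 : rangeOK db 11776 256 = true := by decide +kernel
theorem r47 : rangeOK db 12032 256 = true := by decide +kernel

end Vale.Agent.P062
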