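import Vale.Agent.P062.All

namespace Vale.Agent.P062

open Classical in
noncomputable def mv (n : ℕ) (M B : Finset Cell) : Cell :=
  if h : ∃ x, x ∉ M ∧ x ∉ B ∧ ∀ b, b ∉ insert x M → b ∉ B → WinsIn n (insert x M) (insert b B)
  then h.choose else (exists_free M B).choose

lemma mv_free (n : ℕ) (M B : Finset Cell) : mv n M B ∉ M ∧ mv n M B ∉ B := by
  unfold mv
  split_ifs with h
  · exact ⟨h.choose_spec.1, h.choose_spec.2.1⟩
  · exact (exists_free M B).choose_spec

lemma mv_wins {n : ℕ} {M B : Finset Cell} (h : WinsIn (n + 1) M B) :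
    ∀ b, b ∉ insert (mv n M B) M → b ∉ B → WinsIn n (insert (mv n M B) M) (insert b B) := by
  have h' : ∃ x, x ∉ M ∧ x ∉ B ∧ ∀ b, b ∉ insert x M → b ∉ B →
    WinsIn n (insert x M) (insert b B) := h
  unfold mv
  rw [dif_pos h']
  exact h'.choose_spec.2.2

def Bk (β : ℕ → Cell) (k : ℕ) : Finset Cell := (Finset.range k).image β

noncomputable def Mk (N : ℕ) (β : ℕ → Cell) : ℕ → Finset Cell
  | 0 => ∅
  | k + 1 => insert (mv (N - 1 - k) (Mk N β k) (Bk β k)) (Mk N β k)

lemma Bk_congr {β γ : ℕ → Cell} {k : ℕ} (h : ∀ i < k, β i = γ i) : Bk β k = Bk γ k :=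
  Finset.image_congr fun i hi => h i (by simpa using hi)

lemma Mk_congr (N : ℕ) {β γ : ℕ → Cell} : ∀ {k : ℕ}, (∀ i < k, β i = γ i) → Mk N β k = Mk N γ k
  | 0, _ => rfl
  | k + 1, h => by
    have h' : ∀ i < k, β i = γ i := fun i hi => h i (by omega)
    simp only [Mk, Mk_congr N h', Bk_congr h']

noncomputable def strat (N : ℕ) (l : List Cell) : Cell :=
  mv (N - 1 - l.length) (Mk N (fun i => l.getD i 0) l.length) (Bk (fun i => l.getD i 0) l.length)

lemma strat_eq (N : ℕ) (β : ℕ → Cell) (k : ℕ) :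
    strat N ((List.range k).map β) = mv (N - 1 - k) (Mk N β k) (Bk β k) := by
  have h : ∀ i < k, ((List.range k).map β).getD i 0 = β i := by
    intro i hi
    simp [List.getD_eq_getElem?_getD, hi]
  simp only [strat, List.length_map, List.length_range, Mk_congr N h, Bk_congr h]

lemma mem_Mk (N : ℕ) (β : ℕ → Cell) (z : Cell) :
    ∀ k, z ∈ Mk N β k ↔ ∃ i < k, strat N ((List.range i).map β) = z
  | 0 => by simp [Mk]
  | k + 1 => by
    rw [Mk, Finset.mem_insert, mem_Mk N β z k, ← strat_eq]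
    constructor
    · rintro (h | ⟨i, hi, h⟩)
      · exact ⟨k, by omega, h.symm⟩
      · exact ⟨i, by omega, h⟩
    · rintro ⟨i, hi, h⟩
      rcases Nat.lt_succ_iff_lt_or_eq.1 hi with hi | rfl
      · exact Or.inr ⟨i, hi, h⟩
      · exact Or.inl h.symm

lemma strat_legal (N : ℕ) (β : ℕ → Cell) (k i : ℕ) (hi : i < k) :
    strat N ((List.range k).map β) ≠ strat N ((List.range i).map β) ∧
      strat N ((List.range k).map β) ≠ β i := by
  have h := mv_free (N - 1 - k) (Mk N β k) (Bk β k)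
  rw [← strat_eq] at h
  constructor
  · intro h1
    exact h.1 ((mem_Mk N β _ k).2 ⟨i, hi, h1.symm⟩)
  · intro h1
    exact h.2 (Finset.mem_image.2 ⟨i, by simpa using hi, h1.symm⟩)

lemma strat_wins (N : ℕ) (hN : WinsIn N ∅ ∅) (β : ℕ → Cell)
    (hβ : ∀ k, (∀ i ≤ k, β k ≠ strat N ((List.range i).map β)) ∧ ∀ i < k, β k ≠ β i) :
    ∀ k ≤ N, WinsIn (N - k) (Mk N β k) (Bk β k) := by
  intro k
  induction k with
  | zero => intro _; simpa [Mk, Bk] using hN
  | succ k ih =>
    intro hk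
    have h1 := ih (by omega)
    have e : N - k = (N - 1 - k) + 1 := by omega
    have e' : N - (k + 1) = N - 1 - k := by omega
    rw [e] at h1
    have h2 : Bk β (k + 1) = insert (β k) (Bk β k) := by
      simp [Bk, Finset.range_add_one]
    rw [e', h2]
    refine mv_wins h1 (β k) ?_ ?_
    · intro h3
      obtain ⟨i, hi, h4⟩ := (mem_Mk N β (β k) (k + 1)).1 h3
      exact (hβ k).1 i (by omega) h4.symm
    · intro h3
      obtain ⟨i, hi, h4⟩ := Finset.mem_image.1 h3
      exact (hβ k).2 i (by simpa using hi) h4.symm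

end Vale.Agent.P062
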